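import Vale.Agent.P045.Main

open Vale.Agent.P045

/-- Ryser's conjecture fails, already for intersecting hypergraphs, for infinitely many `r`. -/
theorem Vale.Agent.Results.P045.Counter.result :
    (∀ h : ℕ, 23 ≤ h →
      ∃ (V : Type) (_ : Fintype V) (part : V → Fin (2 ^ h + 2810)) (E : Finset (Finset V)),
        IsPartite part E ∧ E.Nonempty ∧ (∀ e ∈ E, ∀ f ∈ E, ∃ v, v ∈ e ∧ v ∈ f) ∧
        matchingNumber E = 1 ∧ coverNumber E = 2 ^ h + 2810) ∧
    ¬ (∀ r : ℕ, 2 ≤ r → ∀ (V : Type) [Fintype V] (part : V → Fin r) (E : Finset (Finset V)),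
        IsPartite part E → coverNumber E ≤ (r - 1) * matchingNumber E) := by
  refine ⟨exists_counterexample, fun H => ?_⟩
  obtain ⟨V, hV, part, E, h1, -, -, h4, h5⟩ := exists_counterexample 23 le_rfl
  have := H _ (by norm_num) V part E h1
  rw [h4, h5] at this
  omega
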